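/-
Helper62 — project S0175 (three-marginal Riesz transport).
Generic Kantorovich-duality lemmas for three-marginal couplings, independent of any geometry:
a potential `u` with `ofReal (u x + u y + u z) ≤ c (x,y,z)` on `S × S × S` (`μ Sᶜ = 0`) gives the
lower bound `ofReal (3 ∫ u dμ) ≤ ∫⁻ c dπ` for every coupling `π` of `μ`; a coupling attaining the
bound is concentrated on the contact set `c = ofReal (u ⊕ u ⊕ u)`; a coupling concentrated on the
contact set (with `0 ≤ u ⊕ u ⊕ u` there) attains it.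
-/
import Mathlib
import Crest.Prelude.Def_MultiMarginal

set_option autoImplicit false

namespace Crest.Agent.Helper62.OT3

open MeasureTheory
open scoped ENNReal
open Crest.AnalysisR.OT

variable {E : Type*} [MeasurableSpace E]

/-- The sum of a one-body potential over the three coordinates. -/
def pot3 (u : E → ℝ) (p : E × E × E) : ℝ := u p.1 + u p.2.1 + u p.2.2

theorem coupling_ae_mem {μ : Measure E} {π : Measure (E × E × E)} (hπ : IsCoupling₃ μ π)
    {S : Set E} (hμS : μ Sᶜ = 0) :
    ∀ᵐ p ∂π, p.1 ∈ S ∧ p.2.1 ∈ S ∧ p.2.2 ∈ S := by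
  obtain ⟨h1, h2, h3⟩ := hπ
  have key : ∀ (f : E × E × E → E), Measurable f → π.map f = μ → ∀ᵐ p ∂π, f p ∈ S := by
    intro f hf hmap
    rw [ae_iff]
    have : π (f ⁻¹' Sᶜ) ≤ π.map f Sᶜ := Measure.le_map_apply hf.aemeasurable _
    rw [hmap, hμS] at this
    exact le_antisymm this zero_le
  have m1 : Measurable (fun p : E × E × E => p.1) := measurable_fst
  have m2 : Measurable (fun p : E × E × E => p.2.1) := measurable_fst.comp measurable_snd
  have m3 : Measurable (fun p : E × E × E => p.2.2) := measurable_snd.comp measurable_snd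
  filter_upwards [key _ m1 h1, key _ m2 h2, key _ m3 h3] with p a b c
  exact ⟨a, b, c⟩

theorem coupling_integrable_pot3 {μ : Measure E} {π : Measure (E × E × E)}
    (hπ : IsCoupling₃ μ π) {u : E → ℝ} (hu : Integrable u μ) :
    Integrable (pot3 u) π := by
  obtain ⟨h1, h2, h3⟩ := hπ
  have m1 : Measurable (fun p : E × E × E => p.1) := measurable_fst
  have m2 : Measurable (fun p : E × E × E => p.2.1) := measurable_fst.comp measurable_snd
  have m3 : Measurable (fun p : E × E × E => p.2.2) := measurable_snd.comp measurable_snd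
  have i1 : Integrable (fun p : E × E × E => u p.1) π :=
    Integrable.comp_measurable (f := fun p : E × E × E => p.1) (by rw [h1]; exact hu) m1
  have i2 : Integrable (fun p : E × E × E => u p.2.1) π :=
    Integrable.comp_measurable (f := fun p : E × E × E => p.2.1) (by rw [h2]; exact hu) m2
  have i3 : Integrable (fun p : E × E × E => u p.2.2) π :=
    Integrable.comp_measurable (f := fun p : E × E × E => p.2.2) (by rw [h3]; exact hu) m3
  exact (i1.add i2).add i3

theorem coupling_integral_pot3 {μ : Measure E} {π : Measure (E × E × E)}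
    (hπ : IsCoupling₃ μ π) {u : E → ℝ} (hu : Integrable u μ) :
    ∫ p, pot3 u p ∂π = 3 * ∫ x, u x ∂μ := by
  obtain ⟨h1, h2, h3⟩ := hπ
  have m1 : Measurable (fun p : E × E × E => p.1) := measurable_fst
  have m2 : Measurable (fun p : E × E × E => p.2.1) := measurable_fst.comp measurable_snd
  have m3 : Measurable (fun p : E × E × E => p.2.2) := measurable_snd.comp measurable_snd
  have i1 : Integrable (fun p : E × E × E => u p.1) π :=
    Integrable.comp_measurable (f := fun p : E × E × E => p.1) (by rw [h1]; exact hu) m1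
  have i2 : Integrable (fun p : E × E × E => u p.2.1) π :=
    Integrable.comp_measurable (f := fun p : E × E × E => p.2.1) (by rw [h2]; exact hu) m2
  have i3 : Integrable (fun p : E × E × E => u p.2.2) π :=
    Integrable.comp_measurable (f := fun p : E × E × E => p.2.2) (by rw [h3]; exact hu) m3
  have e1 : ∫ p, u p.1 ∂π = ∫ x, u x ∂μ := by
    have := integral_map (μ := π) m1.aemeasurable (f := u) (by rw [h1]; exact hu.1)
    rw [h1] at this; exact this.symm
  have e2 : ∫ p, u p.2.1 ∂π = ∫ x, u x ∂μ := by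
    have := integral_map (μ := π) m2.aemeasurable (f := u) (by rw [h2]; exact hu.1)
    rw [h2] at this; exact this.symm
  have e3 : ∫ p, u p.2.2 ∂π = ∫ x, u x ∂μ := by
    have := integral_map (μ := π) m3.aemeasurable (f := u) (by rw [h3]; exact hu.1)
    rw [h3] at this; exact this.symm
  have : ∫ p, pot3 u p ∂π = ∫ p, u p.1 ∂π + ∫ p, u p.2.1 ∂π + ∫ p, u p.2.2 ∂π := by
    unfold pot3
    have ea := integral_add (i1.add i2) i3
    have eb := integral_add i1 i2
    simp only [Pi.add_apply] at ea eb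
    rw [ea, eb]
  rw [this, e1, e2, e3]; ring

/-- `ofReal (∫ f) ≤ ∫⁻ ofReal f` for integrable `f`. -/
theorem ofReal_integral_le_lintegral_ofReal {α : Type*} [MeasurableSpace α] {ν : Measure α}
    {f : α → ℝ} (hf : Integrable f ν) :
    ENNReal.ofReal (∫ a, f a ∂ν) ≤ ∫⁻ a, ENNReal.ofReal (f a) ∂ν := by
  rw [integral_eq_lintegral_pos_part_sub_lintegral_neg_part hf]
  have hfin : ∫⁻ a, ENNReal.ofReal (f a) ∂ν ≠ ⊤ := by
    have := hf.2
    refine ne_of_lt (lt_of_le_of_lt (lintegral_mono fun a => ?_) this)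
    rw [← ofReal_norm]
    exact ENNReal.ofReal_le_ofReal (le_trans (le_abs_self _) (Real.norm_eq_abs _).ge)
  calc ENNReal.ofReal ((∫⁻ a, ENNReal.ofReal (f a) ∂ν).toReal
          - (∫⁻ a, ENNReal.ofReal (-f a) ∂ν).toReal)
      ≤ ENNReal.ofReal ((∫⁻ a, ENNReal.ofReal (f a) ∂ν).toReal) :=
        ENNReal.ofReal_le_ofReal (sub_le_self _ ENNReal.toReal_nonneg)
    _ = ∫⁻ a, ENNReal.ofReal (f a) ∂ν := ENNReal.ofReal_toReal hfin

/-- **Weak duality.** A potential below the cost on `S³` bounds the cost of every coupling. -/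
theorem lintegral_ge_of_potential {μ : Measure E} {π : Measure (E × E × E)}
    (hπ : IsCoupling₃ μ π) {c : E × E × E → ℝ≥0∞} {u : E → ℝ} (hu : Integrable u μ)
    {S : Set E} (hμS : μ Sᶜ = 0)
    (hle : ∀ x ∈ S, ∀ y ∈ S, ∀ z ∈ S, ENNReal.ofReal (u x + u y + u z) ≤ c (x, y, z)) :
    ENNReal.ofReal (3 * ∫ x, u x ∂μ) ≤ ∫⁻ p, c p ∂π := by
  rw [← coupling_integral_pot3 hπ hu]
  refine (ofReal_integral_le_lintegral_ofReal (coupling_integrable_pot3 hπ hu)).trans ?_
  refine lintegral_mono_ae ?_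
  filter_upwards [coupling_ae_mem hπ hμS] with p hp
  exact hle p.1 hp.1 p.2.1 hp.2.1 p.2.2 hp.2.2

/-- **Complementary slackness.** A coupling whose cost does not exceed the dual value is
concentrated on the contact set. -/
theorem ae_contact_of_lintegral_le {μ : Measure E} {π : Measure (E × E × E)}
    (hπ : IsCoupling₃ μ π) {c : E × E × E → ℝ≥0∞} (hc : AEMeasurable c π)
    {u : E → ℝ} (hu : Integrable u μ)
    {S : Set E} (hμS : μ Sᶜ = 0)
    (hle : ∀ x ∈ S, ∀ y ∈ S, ∀ z ∈ S, ENNReal.ofReal (u x + u y + u z) ≤ c (x, y, z))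
    (hopt : ∫⁻ p, c p ∂π ≤ ENNReal.ofReal (3 * ∫ x, u x ∂μ)) :
    ∀ᵐ p ∂π, c p = ENNReal.ofReal (u p.1 + u p.2.1 + u p.2.2) := by
  have hint := coupling_integrable_pot3 hπ hu
  have h1 : (fun p => ENNReal.ofReal (pot3 u p)) ≤ᵐ[π] c := by
    filter_upwards [coupling_ae_mem hπ hμS] with p hp
    exact hle p.1 hp.1 p.2.1 hp.2.1 p.2.2 hp.2.2
  have hfin : ∫⁻ p, ENNReal.ofReal (pot3 u p) ∂π ≠ ⊤ := by
    have := hint.2
    refine ne_of_lt (lt_of_le_of_lt (lintegral_mono fun a => ?_) this)
    rw [← ofReal_norm]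
    exact ENNReal.ofReal_le_ofReal (le_trans (le_abs_self _) (Real.norm_eq_abs _).ge)
  have h2 : ∫⁻ p, c p ∂π ≤ ∫⁻ p, ENNReal.ofReal (pot3 u p) ∂π := by
    refine hopt.trans ?_
    rw [← coupling_integral_pot3 hπ hu]
    exact ofReal_integral_le_lintegral_ofReal hint
  have := ae_eq_of_ae_le_of_lintegral_le h1 hfin hc h2
  filter_upwards [this] with p hp
  exact hp.symm

/-- A coupling concentrated on the contact set attains the dual value. -/
theorem lintegral_eq_of_ae_contact {μ : Measure E} {π : Measure (E × E × E)}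
    (hπ : IsCoupling₃ μ π) {c : E × E × E → ℝ≥0∞} {u : E → ℝ} (hu : Integrable u μ)
    (hcontact : ∀ᵐ p ∂π, c p = ENNReal.ofReal (u p.1 + u p.2.1 + u p.2.2) ∧
      0 ≤ u p.1 + u p.2.1 + u p.2.2) :
    ∫⁻ p, c p ∂π = ENNReal.ofReal (3 * ∫ x, u x ∂μ) := by
  rw [← coupling_integral_pot3 hπ hu]
  rw [ofReal_integral_eq_lintegral_ofReal (coupling_integrable_pot3 hπ hu)
    (by filter_upwards [hcontact] with p hp using hp.2)]
  refine lintegral_congr_ae ?_
  filter_upwards [hcontact] with p hp using hp.1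

/-- Optimality of a contact coupling among all couplings. -/
theorem optimal_of_ae_contact {μ : Measure E} {π₀ π : Measure (E × E × E)}
    (hπ₀ : IsCoupling₃ μ π₀) (hπ : IsCoupling₃ μ π) {c : E × E × E → ℝ≥0∞} {u : E → ℝ}
    (hu : Integrable u μ) {S : Set E} (hμS : μ Sᶜ = 0)
    (hle : ∀ x ∈ S, ∀ y ∈ S, ∀ z ∈ S, ENNReal.ofReal (u x + u y + u z) ≤ c (x, y, z))
    (hcontact : ∀ᵐ p ∂π₀, c p = ENNReal.ofReal (u p.1 + u p.2.1 + u p.2.2) ∧
      0 ≤ u p.1 + u p.2.1 + u p.2.2) :
    ∫⁻ p, c p ∂π₀ ≤ ∫⁻ p, c p ∂π := by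
  rw [lintegral_eq_of_ae_contact hπ₀ hu hcontact]
  exact lintegral_ge_of_potential hπ hu hμS hle

/-! ### Monge plans -/

/-- The plan `x ↦ (x, T₂ x, T₃ x)` induced by two maps. -/
noncomputable def mongePlan (μ : Measure E) (T₂ T₃ : E → E) : Measure (E × E × E) :=
  μ.map (fun x => (x, T₂ x, T₃ x))

theorem measurable_mongeMap {T₂ T₃ : E → E} (h2 : Measurable T₂) (h3 : Measurable T₃) :
    Measurable (fun x => (x, T₂ x, T₃ x)) :=
  measurable_id.prodMk (h2.prodMk h3)

theorem isCoupling₃_mongePlan {μ : Measure E} {T₂ T₃ : E → E} (h2 : Measurable T₂)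
    (h3 : Measurable T₃) (hT2 : μ.map T₂ = μ) (hT3 : μ.map T₃ = μ) :
    IsCoupling₃ μ (mongePlan μ T₂ T₃) := by
  have hm := measurable_mongeMap h2 h3
  have m1 : Measurable (fun p : E × E × E => p.1) := measurable_fst
  have m2 : Measurable (fun p : E × E × E => p.2.1) := measurable_fst.comp measurable_snd
  have m3 : Measurable (fun p : E × E × E => p.2.2) := measurable_snd.comp measurable_snd
  refine ⟨?_, ?_, ?_⟩
  · unfold mongePlan
    rw [Measure.map_map m1 hm]
    exact Measure.map_id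
  · unfold mongePlan
    rw [Measure.map_map m2 hm]
    exact hT2
  · unfold mongePlan
    rw [Measure.map_map m3 hm]
    exact hT3

theorem lintegral_mongePlan {μ : Measure E} {T₂ T₃ : E → E} (h2 : Measurable T₂)
    (h3 : Measurable T₃) {c : E × E × E → ℝ≥0∞} (hc : Measurable c) :
    ∫⁻ p, c p ∂(mongePlan μ T₂ T₃) = ∫⁻ x, c (x, T₂ x, T₃ x) ∂μ := by
  unfold mongePlan
  rw [lintegral_map hc (measurable_mongeMap h2 h3)]

/-- A Monge pair whose cost does not exceed the dual value stays a.e. on the contact set. -/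
theorem ae_contact_of_monge {μ : Measure E} {T₂ T₃ : E → E} (h2 : Measurable T₂)
    (h3 : Measurable T₃) (hT2 : μ.map T₂ = μ) (hT3 : μ.map T₃ = μ)
    {c : E × E × E → ℝ≥0∞} (hc : Measurable c) {u : E → ℝ} (hu : Integrable u μ)
    {S : Set E} (hμS : μ Sᶜ = 0)
    (hle : ∀ x ∈ S, ∀ y ∈ S, ∀ z ∈ S, ENNReal.ofReal (u x + u y + u z) ≤ c (x, y, z))
    (hopt : ∫⁻ x, c (x, T₂ x, T₃ x) ∂μ ≤ ENNReal.ofReal (3 * ∫ x, u x ∂μ)) :
    ∀ᵐ x ∂μ, c (x, T₂ x, T₃ x) = ENNReal.ofReal (u x + u (T₂ x) + u (T₃ x)) := by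
  have hπ := isCoupling₃_mongePlan h2 h3 hT2 hT3
  have hm := measurable_mongeMap h2 h3
  have hopt' : ∫⁻ p, c p ∂(mongePlan μ T₂ T₃) ≤ ENNReal.ofReal (3 * ∫ x, u x ∂μ) := by
    rw [lintegral_mongePlan h2 h3 hc]; exact hopt
  have key := ae_contact_of_lintegral_le hπ hc.aemeasurable hu hμS hle hopt'
  unfold mongePlan at key
  exact ae_of_ae_map hm.aemeasurable key

/-! ### Measurability of the Riesz cost -/

theorem measurable_pairCost {F : Type*} [NormedAddCommGroup F] [MeasurableSpace F]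
    [BorelSpace F] [SecondCountableTopology F] (s : ℝ) :
    Measurable (fun p : F × F => pairCost s p.1 p.2) := by
  unfold pairCost
  have : Measurable (fun p : F × F => ‖p.1 - p.2‖) :=
    (measurable_fst.sub measurable_snd).norm
  exact (ENNReal.measurable_ofReal.comp this).pow_const _

theorem measurable_tripleCost {F : Type*} [NormedAddCommGroup F] [MeasurableSpace F]
    [BorelSpace F] [SecondCountableTopology F] (s : ℝ) :
    Measurable (tripleCost (E := F) s) := by
  unfold tripleCost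
  have h12 : Measurable (fun p : F × F × F => pairCost s p.1 p.2.1) :=
    (measurable_pairCost s).comp (measurable_fst.prodMk (measurable_fst.comp measurable_snd))
  have h13 : Measurable (fun p : F × F × F => pairCost s p.1 p.2.2) :=
    (measurable_pairCost s).comp (measurable_fst.prodMk (measurable_snd.comp measurable_snd))
  have h23 : Measurable (fun p : F × F × F => pairCost s p.2.1 p.2.2) :=
    (measurable_pairCost s).comp
      ((measurable_fst.comp measurable_snd).prodMk (measurable_snd.comp measurable_snd))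
  exact (h12.add h13).add h23

theorem pairCost_pos {F : Type*} [NormedAddCommGroup F] {s : ℝ} (hs : 0 < s) (x y : F) :
    0 < pairCost s x y := by
  unfold pairCost
  rcases eq_or_ne (ENNReal.ofReal ‖x - y‖) 0 with h | h
  · rw [h, ENNReal.zero_rpow_of_neg (by linarith)]; exact ENNReal.zero_lt_top
  · exact ENNReal.rpow_pos (pos_iff_ne_zero.mpr h) ENNReal.ofReal_ne_top

theorem tripleCost_pos {F : Type*} [NormedAddCommGroup F] {s : ℝ} (hs : 0 < s) (p : F × F × F) :
    0 < tripleCost s p := by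
  unfold tripleCost
  exact lt_of_lt_of_le (pairCost_pos hs _ _) (le_trans le_self_add le_self_add)

/-- Real-valued form of the pair cost away from the diagonal. -/
theorem pairCost_eq_ofReal {F : Type*} [NormedAddCommGroup F] (s : ℝ) {x y : F} (hxy : x ≠ y) :
    pairCost s x y = ENNReal.ofReal (‖x - y‖ ^ (-s)) := by
  unfold pairCost
  have hpos : 0 < ‖x - y‖ := norm_pos_iff.mpr (sub_ne_zero.mpr hxy)
  rw [ENNReal.ofReal_rpow_of_pos hpos]

end Crest.Agent.Helper62.OT3
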